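import Vale.Agent.P061.Iter

namespace Vale.Agent.Results.P061.ThinTree

/-- The edge copies with exactly one end point in `S`. -/
def delta {V E : Type} (ends : E → Sym2 V) (S : Set V) : Set E :=
  {e | ∃ a ∈ S, ∃ b, b ∉ S ∧ ends e = s(a, b)}

/-- `T` is a set of `n - 1` edge copies forming a tree on the whole vertex set. -/
def IsSpanningTree {V E : Type} [Fintype V] (ends : E → Sym2 V) (T : Set E) : Prop :=
  T.ncard + 1 = Fintype.card V ∧ (SimpleGraph.fromEdgeSet (ends '' T)).IsTree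

theorem result : ∃ C : ℝ, ∀ (V E : Type) [Fintype V] [Fintype E] (ends : E → Sym2 V),
    (∀ e, ¬ (ends e).IsDiag) → 2 ≤ Fintype.card V → ∀ k : ℕ, 1 ≤ k →
    (∀ S : Set V, S.Nonempty → S ≠ Set.univ → k ≤ (delta ends S).ncard) →
    ∃ T : Set E, IsSpanningTree ends T ∧ ∀ S : Set V, S.Nonempty → S ≠ Set.univ →
      ((delta ends S ∩ T).ncard : ℝ) ≤ C / k * (delta ends S).ncard := by
  classical
  obtain ⟨C, hC⟩ := Vale.Agent.P061.thin_connected
  refine ⟨C, fun V E _ _ ends hd hV k hk h => ?_⟩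
  have he : ∀ e, ∃ p : V × V, ends e = s(p.1, p.2) := fun e =>
    Sym2.ind (f := fun z => ∃ p : V × V, z = s(p.1, p.2)) (fun a b => ⟨(a, b), rfl⟩) (ends e)
  choose p hp using he
  have hc : ∀ S : Set V, delta ends S =
      ↑(Vale.Agent.P061.cutS (fun e => (p e).1) (fun e => (p e).2) S.toFinset) := fun S => by
    ext e
    simp only [delta, Set.mem_ofPred_eq, hp e, Sym2.eq_iff, Finset.mem_coe,
      Vale.Agent.P061.mem_cutS, Set.mem_toFinset]
    constructor
    · rintro ⟨a, ha, b, hb, ⟨rfl, rfl⟩ | ⟨rfl, rfl⟩⟩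
      · exact fun H => hb (H.1 ha)
      · exact fun H => hb (H.2 ha)
    · intro H
      by_cases h1 : (p e).1 ∈ S
      · exact ⟨_, h1, _, fun h2 => H (iff_of_true h1 h2), Or.inl ⟨rfl, rfl⟩⟩
      · exact ⟨_, by_contra fun h2 => H (iff_of_false h1 h2), _, h1, Or.inr ⟨rfl, rfl⟩⟩
  obtain ⟨H, h1, h2⟩ := hC V E (fun e => (p e).1) (fun e => (p e).2) k hk fun S g1 g2 => by
    have := h S (Finset.coe_nonempty.2 g1) fun H => g2 (Finset.coe_eq_univ.1 H)
    rwa [hc, Set.ncard_coe_finset, Finset.toFinset_coe] at this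
  have : Nonempty V := Fintype.card_pos_iff.1 (by omega)
  have h3 : (SimpleGraph.fromEdgeSet (ends '' H)).Connected := by
    refine ⟨fun u v => ?_⟩
    have h4 : Vale.Agent.P061.gen (fun e => (p e).1) (fun e => (p e).2) H ≤
        (SimpleGraph.fromEdgeSet (ends '' H)).reachableSetoid :=
      Vale.Agent.P061.gen_le_iff.2 fun e he => SimpleGraph.Adj.reachable
        ((SimpleGraph.fromEdgeSet_adj _).2 ⟨⟨e, he, hp e⟩, fun H => hd e (by simp [hp e, H])⟩)
    exact h4 (by rw [h1]; trivial)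
  obtain ⟨G, h4, h5⟩ := h3.exists_isTree_le
  have h6 : ∀ z : G.edgeSet, ∃ e ∈ H, ends e = z := fun z => by
    have := SimpleGraph.edgeSet_mono h4 z.2
    rw [SimpleGraph.edgeSet_fromEdgeSet] at this
    exact this.1
  choose f f1 f2 using h6
  have h7 : ends '' Set.range f = G.edgeSet := by
    rw [← Set.range_comp, show ends ∘ f = Subtype.val from funext f2, Subtype.range_val]
  refine ⟨Set.range f, ⟨?_, by rwa [h7, SimpleGraph.fromEdgeSet_edgeSet]⟩, fun S _ _ => ?_⟩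
  · rw [← h5.card_edgeFinset, ← Set.ncard_coe_finset, SimpleGraph.coe_edgeFinset,
      ← congrArg Set.ncard h7, Set.InjOn.ncard_image]
    rintro _ ⟨x, rfl⟩ _ ⟨y, rfl⟩ hxy
    rw [f2, f2] at hxy
    rw [Subtype.ext hxy]
  · rw [hc, Set.ncard_coe_finset]
    refine le_trans (Nat.cast_le.2 ?_) (h2 S.toFinset)
    rw [← Set.ncard_coe_finset]
    refine Set.ncard_le_ncard ?_
    rintro _ ⟨g1, x, rfl⟩
    exact Finset.mem_coe.2 (Finset.mem_inter.2 ⟨f1 x, g1⟩)

end Vale.Agent.Results.P061.ThinTree
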